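import Vale.Agent.Lib.P049.Dense

/-!
# P049: the dense window

Every simple `d`-regular graph on `n` vertices with `(n - d)² ≤ 4 (d - 1)` is a Ramanujan graph:
all its nonconstant adjacency eigenvalues have absolute value at most `n - d ≤ 2 √(d - 1)`.
-/

namespace Vale.Agent.Results.P049.DenseWindow

open Vale.Agent.Lib.P049

theorem result {V : Type} [Fintype V] [DecidableEq V] (G : SimpleGraph V)
    [DecidableRel G.Adj] (d : ℕ) (hreg : G.IsRegularOfDegree d)
    (hwin : (Fintype.card V - d) ^ 2 ≤ 4 * (d - 1)) : IsRamanujan G d :=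
  dense_window G d hreg hwin

end Vale.Agent.Results.P049.DenseWindow
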